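import Vale.Agent.P258.R2.H863.Spec

/-!
The group `GL(2, 3)` of order `48` on the numbers `0, ..., 47`, with its multiplication read off
from a table, the determinant, the map to `S₄` (action on the four lines) and the lift of the
4-cycles (elements of order eight of trace one).
-/

namespace Vale.Agent.P258.R2.H49

open Vale.Agent.P258.R2.H863

def tabMul : ℕ := 135420794155929682627621957753619966470718070316148051500525442784069783368924579559333240356589088563832464639085823845367530076339195043803983682076873484246067476456626818971465968866659682003043639537631338565964668633237287274070350213413126716900327192476523153773071621652781883082835166768271649238991330509956726761209422287529067907756455592117311593365329476021887942922968197749303586348346040802101583158455455025070598872540044807067150412720004221278258803965725760476480900703311542078338334213434614661085754203604896049480122075608712331133294311968903867802812687852947985867953134179327108694600800346231415423986719873807005022944552360825934345966727502174879399036928200171271828773634094197724743551597095264675494697142131678091832412262875411390907088403797807364140083887745633055674133479478551716503421115021978294864583932813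2167442566054869825590336833926121426225241973250626161852583592489991612061702647093202104871572250555194137017873509234020017974356486605152989855089997444556204981566227481423928229572226848320324289169097986816203803548854625275744929653426694747485228222705982537784288826259425495649176177589240492560764246985749273842119349107947648399519373538961895541334425433612141333159302364269429078884098326434146995239298603706687220002818819536153686884418107696088174642959476913715555960566145497846470283681441892297901533692265910789957070823729683403329668467436473507899783254712179835702259269065056863119757724734653894874685279424450103119790556157055590099175736248388199954005652349753088670655121476293319181535291690681979299805852435603019611155058099364751559364598957966935432182266939407171824671339665754775583633893476943530369535408499484508459872021874852868169294615530243850054105632927979314978843945745825558659765539887930950649463867442722420191040676730162306340347334280585970738850657549080796296991520849780514769702446478111523153077387712665103193949184038408713418255557986757702557221039896321613146978180124955778263019698478044509275848723311974786755539711904547471261979525773756443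9769478972185399231909518975380688847975993901882656134755742039849491621766175371351383808831036851640915730767604012169244528446845548004073245502941764191345626660415851758754865939348734843909473279101402119416489709843413318499176280936596722236444933560607868762012046419462882288644379363008944492453375801764021208097849325133971330297065138173984052044725226415650365924083742683704876969218490974644846640275224259607572185335653896835522877899192582482560663217926741362917482845312514766956143216398861634841222851159136710556369413995625904817474011255516727899675498413604224293566613996389580655062921639116771485849068035673420261097885965002498267747100587336759293572739723624193997909990309228610933892828565053804314811336264002362429454407573191746387942298865668680231171087207464209491362835539198097294915221634858362393503992264587905240571957807719321312474703870834551715700098129857288925812255831028460883751382688671649951944371736287594482710429484128217619262524011438980157687563520014907253059069538156673504896723463899753901069177543430833101092399727669420811875096331177385563901401006640305004170008110503258139793057471543019776560032345196500104648161414418756262123934225562633290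29704497247750014628606545226017949061140357078383063212834857538459177506206973224839987416950837661550214135681071124076894967299857710297721798926590416779735991518911312971409368010219048897902369226595011735452592530283618846707038633728791213322496489085595147024657920309247865187466435362104503178575549917431092220110752176051125112642091365557281834566103351618213043833995318859728408452972972973843507712936937119034157256335350128911990244055596173789132603954703348202260797022854625060407997878852982823292929349791097957388570933801167881405373499977576097991374027196980368843508878516602738044292504681758978093213950068816886375759587149823102229422286913800161545743167068678709807043800770334678185349182416040072917959955505486005968148746983866764941710953625313056987337887110371877559767832121088904795153546046729865872363034490975297600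

def tabInv : ℕ := 164571189825748175934554338271645991036072838322426989504551137923081679793758716190784

def tabAct : ℕ := 39552462357750152549635813595982211294719350068590778012908373772466346777653156816521187652713931417852787881570701233976240827889790831174200860836158720275362730523636107914540555086913480974409529157669041062026794097125666309073169430137094812510022995800512113792245265203638638534104404008104281537577730306873685807520449360514374300255880

def tabPr : ℕ := 12074015682934219438633295579791264275578378834808126248067914798835832467118425583442149188606330770066028252226020

def tabDet : ℕ := 112516778343438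

def tabTau : ℕ := 6299282087375965545510235392954123707617328422818016132425158392270542021496538904110095112612672962560

def mulN (a b : ℕ) : ℕ := (tabMul >>> (6 * (48 * a + b))) % 64

def invN (a : ℕ) : ℕ := (tabInv >>> (6 * a)) % 64

def actN (a i : ℕ) : ℕ := (tabAct >>> (3 * (8 * a + i))) % 8

def prN (a i : ℕ) : ℕ := (tabPr >>> (2 * (4 * a + i))) % 4

def detN (a : ℕ) : ℕ := (tabDet >>> a) % 2

def tauN (c : ℕ) : ℕ := (tabTau >>> (6 * c)) % 64

theorem chk_mul_lt : ((List.range 48).all fun a => (List.range 48).all fun b =>
    Nat.blt (mulN a b) 48) = true := by decide +kernel

theorem chk_act : ((List.range 48).all fun a => (List.range 48).all fun b =>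
    (List.range 8).all fun i => Nat.beq (actN (mulN a b) i) (actN a (actN b i))) = true := by
  decide +kernel

theorem chk_act_lt : ((List.range 48).all fun a => (List.range 8).all fun i =>
    Nat.blt (actN a i) 8) = true := by decide +kernel

theorem chk_inj : ((List.range 48).all fun a => (List.range 48).all fun b =>
    Nat.beq a b || !((List.range 8).all fun i => Nat.beq (actN a i) (actN b i))) = true := by
  decide +kernel

theorem chk_one : ((List.range 48).all fun a =>
    Nat.beq (mulN 0 a) a && Nat.beq (mulN a 0) a) = true := by decide +kernel

theorem chk_inv : ((List.range 48).all fun a =>
    Nat.blt (invN a) 48 && Nat.beq (mulN (invN a) a) 0) = true := by decide +kernel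

theorem chk_tau_lt : ((List.range 64).all fun c => Nat.blt (tauN c) 48) = true := by
  decide +kernel

theorem all_range {n : ℕ} {p : ℕ → Bool} (h : (List.range n).all p = true) {a : ℕ} (ha : a < n) :
    p a = true := List.all_eq_true.1 h a (List.mem_range.2 ha)

theorem beq_eq {a b : ℕ} (h : Nat.beq a b = true) : a = b := Nat.eq_of_beq_eq_true h

theorem blt_lt {a b : ℕ} (h : Nat.blt a b = true) : a < b := by
  simpa [Nat.blt_eq] using h

theorem mulN_lt {a b : ℕ} (ha : a < 48) (hb : b < 48) : mulN a b < 48 :=
  blt_lt (all_range (all_range chk_mul_lt ha) hb)

theorem invN_lt {a : ℕ} (ha : a < 48) : invN a < 48 := by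
  have h := all_range chk_inv ha
  rw [Bool.and_eq_true] at h
  exact blt_lt h.1

theorem actN_lt {a i : ℕ} (ha : a < 48) (hi : i < 8) : actN a i < 8 :=
  blt_lt (all_range (all_range chk_act_lt ha) hi)

theorem act_mul {a b i : ℕ} (ha : a < 48) (hb : b < 48) (hi : i < 8) :
    actN (mulN a b) i = actN a (actN b i) :=
  beq_eq (all_range (all_range (all_range chk_act ha) hb) hi)

theorem act_inj {a b : ℕ} (ha : a < 48) (hb : b < 48) (h : ∀ i < 8, actN a i = actN b i) :
    a = b := by
  have h1 := all_range (all_range chk_inj ha) hb
  rw [Bool.or_eq_true] at h1
  rcases h1 with h1 | h1
  · exact beq_eq h1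
  · exfalso
    have h2 : ((List.range 8).all fun i => Nat.beq (actN a i) (actN b i)) = true := by
      rw [List.all_eq_true]
      intro i hi
      rw [h i (List.mem_range.1 hi)]
      exact Nat.beq_refl _
    rw [h2] at h1
    exact absurd h1 (by decide)

theorem mulN_assoc {a b c : ℕ} (ha : a < 48) (hb : b < 48) (hc : c < 48) :
    mulN (mulN a b) c = mulN a (mulN b c) := by
  apply act_inj (mulN_lt (mulN_lt ha hb) hc) (mulN_lt ha (mulN_lt hb hc))
  intro i hi
  rw [act_mul (mulN_lt ha hb) hc hi, act_mul ha hb (actN_lt hc hi),
    act_mul ha (mulN_lt hb hc) hi, act_mul hb hc hi]

/-- The group `GL(2, 3)`. -/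
structure G48 where
  val : ℕ
  lt : val < 48

namespace G48

theorem ext' {a b : G48} (h : a.val = b.val) : a = b := by
  cases a; cases b; cases h; rfl

instance : DecidableEq G48 := fun a b =>
  if h : a.val = b.val then isTrue (ext' h) else isFalse (fun h1 => h (by rw [h1]))

instance : Mul G48 := ⟨fun a b => ⟨mulN a.val b.val, mulN_lt a.lt b.lt⟩⟩
instance : One G48 := ⟨⟨0, by decide⟩⟩
instance : Inv G48 := ⟨fun a => ⟨invN a.val, invN_lt a.lt⟩⟩

instance : Group G48 :=
  Group.ofLeftAxioms
    (fun a b c => ext' (mulN_assoc a.lt b.lt c.lt))
    (fun a => ext' (by
      have h := all_range chk_one a.lt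
      rw [Bool.and_eq_true] at h
      exact beq_eq h.1))
    (fun a => ext' (by
      have h := all_range chk_inv a.lt
      rw [Bool.and_eq_true] at h
      exact beq_eq h.2))

instance : Finite G48 :=
  Finite.of_injective (fun a : G48 => (⟨a.val, a.lt⟩ : Fin 48)) (by
    intro a b h
    exact ext' (by simpa using h))

/-- the element with a given number -/
def el (i : Fin 48) : G48 := ⟨i.1, i.2⟩

theorem el_val (g : G48) : el ⟨g.val, g.lt⟩ = g := rfl

/-- the action on the four lines -/
def prF (g : G48) (i : Fin 4) : Fin 4 := ⟨prN g.val i.val, Nat.mod_lt _ (by decide)⟩

theorem prF_mul : ∀ i j : Fin 48, ∀ k : Fin 4, prF (el i * el j) k = prF (el i) (prF (el j) k) := by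
  decide +kernel

theorem prF_one : ∀ k : Fin 4, prF 1 k = k := by decide +kernel

theorem prF_mul' (g h : G48) (k : Fin 4) : prF (g * h) k = prF g (prF h k) :=
  prF_mul ⟨g.val, g.lt⟩ ⟨h.val, h.lt⟩ k

/-- the map to `S₄` -/
def pr : G48 →* Equiv.Perm (Fin 4) where
  toFun g := ⟨prF g, prF g⁻¹, fun k => by rw [← prF_mul', inv_mul_cancel, prF_one],
    fun k => by rw [← prF_mul', mul_inv_cancel, prF_one]⟩
  map_one' := by
    ext k
    exact congrArg Fin.val (prF_one k)
  map_mul' g h := by
    ext k
    exact congrArg Fin.val (prF_mul' g h k)

/-- the determinant -/
def detF (g : G48) : ℤˣ := if detN g.val = 0 then 1 else -1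

theorem detF_mul : ∀ i j : Fin 48, detF (el i * el j) = detF (el i) * detF (el j) := by
  decide +kernel

/-- the determinant -/
def det : G48 →* ℤˣ where
  toFun := detF
  map_one' := by decide +kernel
  map_mul' g h := detF_mul ⟨g.val, g.lt⟩ ⟨h.val, h.lt⟩

/-- `-1` -/
def z : G48 := ⟨31, by decide⟩

/-- the lift of the 4-cycles -/
def tau (c : Equiv.Perm (Fin 4)) : G48 :=
  ⟨tauN ((16 * (c 0).val + 4 * (c 1).val + (c 2).val) % 64),
    blt_lt (all_range chk_tau_lt (Nat.mod_lt _ (by decide)))⟩

instance (c : Equiv.Perm (Fin 4)) : Decidable (Is4 c) := inferInstanceAs (Decidable (_ ∧ _))

/-- the double cover -/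
def cover : Cover G48 where
  z := z
  det := det
  pr := pr
  τ := tau
  z_ne := by decide +kernel
  z_comm := by
    have h : ∀ i : Fin 48, el i * z = z * el i := by decide +kernel
    exact fun g => h ⟨g.val, g.lt⟩
  z_sq := by decide +kernel
  pr_z := by decide +kernel
  det_z := by decide +kernel
  pr_inj := by
    have h : ∀ i j : Fin 48, (∀ k : Fin 4, prF (el i) k = prF (el j) k) →
        el j = el i ∨ el j = el i * z := by decide +kernel
    intro g g' hg
    refine h ⟨g.val, g.lt⟩ ⟨g'.val, g'.lt⟩ fun k => ?_
    exact congrArg (fun f : Equiv.Perm (Fin 4) => f k) hg
  pr_surj := by
    have h : ∀ y : Equiv.Perm (Fin 4), ∃ i : Fin 48, pr (el i) = y := by decide +kernel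
    intro y
    obtain ⟨i, hi⟩ := h y
    exact ⟨el i, hi⟩
  ord := by
    have h : ∀ i : Fin 48, det (el i) ≠ 1 → (el i) ^ 2 = 1 ∨ (el i) ^ 4 = z := by decide +kernel
    exact fun g => h ⟨g.val, g.lt⟩
  cent_two := by
    have h : ∀ i j : Fin 48, det (el i) ≠ 1 → (el i) ^ 2 = 1 → el i * el j = el j * el i →
        det (el j) = 1 → el j = 1 ∨ el j = z := by decide +kernel
    exact fun g g' => h ⟨g.val, g.lt⟩ ⟨g'.val, g'.lt⟩
  cent_eight := by
    have h : ∀ i j : Fin 48, (el i) ^ 4 = z → el i * el j = el j * el i →
        det (el j) = 1 → el j = 1 ∨ el j = z ∨ el j = (el i) ^ 2 ∨ el j = (el i) ^ 2 * z := by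
      decide +kernel
    exact fun g g' => h ⟨g.val, g.lt⟩ ⟨g'.val, g'.lt⟩
  four := by
    have h : ∀ i : Fin 48, (el i) ^ 4 = z ↔ Is4 (pr (el i)) := by decide +kernel
    exact fun g => h ⟨g.val, g.lt⟩
  det_of_four := by
    have h : ∀ i : Fin 48, (el i) ^ 4 = z → det (el i) ≠ 1 := by decide +kernel
    exact fun g => h ⟨g.val, g.lt⟩
  pr_τ := by decide +kernel
  τ_conj := by
    have h : ∀ i : Fin 48, ∀ c : Equiv.Perm (Fin 4), Is4 c →
        el i * tau c * (el i)⁻¹ = tau (pr (el i) * c * (pr (el i))⁻¹) := by decide +kernel
    exact fun g => h ⟨g.val, g.lt⟩
  exp := by
    have h : ∀ i : Fin 48, (el i) ^ 24 = 1 := by decide +kernel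
    exact fun g => h ⟨g.val, g.lt⟩

end G48

/-- row A -/
theorem exists_cover : SpecCover := ⟨G48, inferInstance, inferInstance, ⟨G48.cover⟩⟩

end Vale.Agent.P258.R2.H49
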